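import Vale.Agent.P146.Defs
import Vale.Agent.P146.Final

/-! Polynomial improvement of the variance bound for the SK free energy at every temperature. -/

namespace Vale.Agent.Results.P146.Poly

open Vale.Agent.P146 MeasureTheory ProbabilityTheory

theorem result (β : ℝ) (hβ : 0 < β) : ∃ C : ℝ, ∀ n : ℕ, 1 ≤ n →
    MemLp (freeEn n β) 2 (disorder n) ∧
      variance (freeEn n β) (disorder n) ≤ C * (n : ℝ) ^ (1 - 1 / 423 : ℝ) :=
  main hβ

end Vale.Agent.Results.P146.Poly
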