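import Vale.Agent.P146.Defs
import Vale.Agent.P146L.Main

/-! Two sided polynomial bounds for the variance of the SK free energy at low temperature. -/

namespace Vale.Agent.Results.P146.TwoSided

open Vale.Agent.P146 MeasureTheory ProbabilityTheory

theorem result (β : ℝ) (hβ : 1 < β) : ∃ (C : ℝ) (n0 : ℕ), ∀ n : ℕ, n0 ≤ n →
    MemLp (freeEn n β) 2 (disorder n) ∧
      (n : ℝ) ^ (1 / 62181 : ℝ) ≤ variance (freeEn n β) (disorder n) ∧
      variance (freeEn n β) (disorder n) ≤ C * (n : ℝ) ^ (1 - 1 / 423 : ℝ) := by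
  obtain ⟨C, hC⟩ := Vale.Agent.P146.main (zero_lt_one.trans hβ)
  obtain ⟨n0, h0⟩ := Vale.Agent.P146L.main hβ
  exact ⟨C, max n0 1, fun n hn => ⟨(hC n (le_of_max_le_right hn)).1, h0 n (le_of_max_le_left hn),
    (hC n (le_of_max_le_right hn)).2⟩⟩

end Vale.Agent.Results.P146.TwoSided
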